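import Mathlib

/-!
# Traces of nearby idempotents agree

If `e`, `f` are idempotents of a normed ring with `‖f - e‖ < 1`, and `τ` is a bounded additive
functional which is tracial on a multiplicatively and subtractively closed set containing `e`
and `f`, then `τ e = τ f`.
-/

namespace Vale.Agent.Lib.P184

section Abstract

variable {R : Type*} [Ring R]

theorem idem_sq_comm_left {e f : R} (he : e * e = e) (hf : f * f = f) :
    Commute e ((f - e) * (f - e)) := by
  change e * ((f - e) * (f - e)) = ((f - e) * (f - e)) * e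
  linear_combination (norm := noncomm_ring) e * hf - he * f - hf * e + f * he

theorem idem_sq_comm_right {e f : R} (he : e * e = e) (hf : f * f = f) :
    Commute f ((f - e) * (f - e)) := by
  change f * ((f - e) * (f - e)) = ((f - e) * (f - e)) * f
  linear_combination (norm := noncomm_ring) f * he - hf * e - he * f + e * hf

/-- algebraic identity: for idempotents `e`, `f`, the cube of `f - e`. -/
theorem idem_cube {e f : R} (he : e * e = e) (hf : f * f = f) :
    (f - e) * ((f - e) * (f - e)) = (f - e) - (f * e * (e * f) - e * f * (f * e)) := by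
  linear_combination (norm := noncomm_ring)
    hf * f + hf - hf * e + f * he - e * hf + he * f - he * e - he + f * he * f - e * hf * e

/-- The odd powers of `f - e` all have the same trace. -/
theorem trace_odd_pow (τ : R →+ ℂ)
    (P : R → Prop) (hmul : ∀ x y, P x → P y → P (x * y)) (hsub : ∀ x y, P x → P y → P (x - y))
    (htr : ∀ x y, P x → P y → τ (x * y) = τ (y * x))
    {e f : R} (he : e * e = e) (hf : f * f = f) (hPe : P e) (hPf : P f) (k : ℕ) :
    τ ((f - e) * ((f - e) * (f - e)) ^ k) = τ (f - e) := by
  have hPd : P (f - e) := hsub _ _ hPf hPe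
  have hPw : ∀ k : ℕ, P (e * f * ((f - e) * (f - e)) ^ k) := by
    intro k
    induction k with
    | zero => simpa using hmul _ _ hPe hPf
    | succ k ih =>
      rw [pow_succ, ← mul_assoc]
      exact hmul _ _ ih (hmul _ _ hPd hPd)
  induction k with
  | zero => simp
  | succ k ih =>
    have hc1 : Commute e (((f - e) * (f - e)) ^ k) := (idem_sq_comm_left he hf).pow_right k
    have hc2 : Commute f (((f - e) * (f - e)) ^ k) := (idem_sq_comm_right he hf).pow_right k
    have hc3 : Commute (f * e) (((f - e) * (f - e)) ^ k) := hc2.mul_left hc1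
    have hcube := idem_cube he hf
    have h3 : (f - e) * ((f - e) * (f - e)) ^ (k + 1)
        = (f - e) * ((f - e) * (f - e)) ^ k
          - (f * e * (e * f * ((f - e) * (f - e)) ^ k)
              - e * f * ((f - e) * (f - e)) ^ k * (f * e)) := by
      have h4 : (f - e) * ((f - e) * (f - e)) ^ (k + 1)
          = (f - e) * ((f - e) * (f - e)) * ((f - e) * (f - e)) ^ k := by
        rw [pow_succ', ← mul_assoc]
      have h5 : e * f * (f * e) * ((f - e) * (f - e)) ^ k
          = e * f * ((f - e) * (f - e)) ^ k * (f * e) := by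
        rw [mul_assoc (e * f) (f * e), hc3.eq, ← mul_assoc]
      rw [h4, hcube, sub_mul, sub_mul (f * e * (e * f)), h5, mul_assoc (f * e) (e * f)]
    rw [h3, map_sub, map_sub, ih]
    have := htr (f * e) (e * f * ((f - e) * (f - e)) ^ k) (hmul _ _ hPf hPe) (hPw k)
    rw [this]
    simp

end Abstract

section Normed

variable {R : Type*} [NormedRing R]

/-- Traces of idempotents at distance `< 1` agree. -/
theorem trace_eq_of_idem_close (τ : R →+ ℂ) (K : ℝ) (hK0 : 0 ≤ K) (hK : ∀ x, ‖τ x‖ ≤ K * ‖x‖)
    (P : R → Prop) (hmul : ∀ x y, P x → P y → P (x * y)) (hsub : ∀ x y, P x → P y → P (x - y))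
    (htr : ∀ x y, P x → P y → τ (x * y) = τ (y * x))
    {e f : R} (he : e * e = e) (hf : f * f = f) (hPe : P e) (hPf : P f)
    (hclose : ‖f - e‖ < 1) : τ e = τ f := by
  have key := trace_odd_pow τ P hmul hsub htr he hf hPe hPf
  have hbound : ∀ k : ℕ, ‖τ (f - e)‖ ≤ K * ‖f - e‖ ^ (2 * k + 1) := by
    intro k
    rw [← key k]
    refine (hK _).trans ?_
    refine mul_le_mul_of_nonneg_left ?_ hK0
    have h1 : (f - e) * ((f - e) * (f - e)) ^ k = (f - e) ^ (2 * k + 1) := by
      rw [← pow_two, ← pow_mul, pow_succ']
    rw [h1]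
    exact norm_pow_le' _ (Nat.succ_pos _)
  have hlim : Filter.Tendsto (fun k : ℕ => K * ‖f - e‖ ^ (2 * k + 1)) Filter.atTop (nhds 0) := by
    have h0 : Filter.Tendsto (fun n : ℕ => ‖f - e‖ ^ n) Filter.atTop (nhds 0) :=
      tendsto_pow_atTop_nhds_zero_of_lt_one (norm_nonneg _) hclose
    have h1 : Filter.Tendsto (fun k : ℕ => 2 * k + 1) Filter.atTop Filter.atTop := by
      apply Filter.tendsto_atTop_mono (fun k => ?_) Filter.tendsto_id
      simp only [id]; omega
    have h2 := (h0.comp h1).const_mul K
    simpa using h2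
  have hle : ‖τ (f - e)‖ ≤ 0 := ge_of_tendsto' hlim hbound
  have hz : τ (f - e) = 0 := by
    have := le_antisymm hle (norm_nonneg _)
    simpa using this
  rw [map_sub, sub_eq_zero] at hz
  exact hz.symm

end Normed

end Vale.Agent.Lib.P184
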