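import Mathlib
import Vale.Agent.Lib.P184.Idem

/-!
# Monomial operators on `ℓ¹(G; A)`

For a group `G` and a Banach algebra `A` we consider the Banach space `ℓ¹(G; A)` and the bounded
operators `mono h c : x ↦ (g ↦ c * x (h⁻¹ * g))`.  Norm-summable series of such operators realise
the Banach algebra `ℓ¹(G; A)` with convolution inside the Banach algebra of bounded operators.
-/

namespace Vale.Agent.Lib.P184

open scoped ENNReal

universe u v

set_option linter.unusedSectionVars false

/-- The Banach space `ℓ¹(G; A)`. -/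
def L1 (G : Type u) (A : Type v) [NormedRing A] : Type (max u v) := ↥(lp (fun _ : G => A) 1)

section L1

variable {G : Type u} {A : Type v} [NormedRing A]

noncomputable instance : NormedAddCommGroup (L1 G A) :=
  inferInstanceAs (NormedAddCommGroup ↥(lp (fun _ : G => A) 1))

noncomputable instance [NormedAlgebra ℂ A] : NormedSpace ℂ (L1 G A) :=
  inferInstanceAs (NormedSpace ℂ ↥(lp (fun _ : G => A) 1))

instance [CompleteSpace A] : CompleteSpace (L1 G A) :=
  inferInstanceAs (CompleteSpace ↥(lp (fun _ : G => A) 1))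

/-- The underlying function of an element of `ℓ¹(G; A)`. -/
def L1.fn (x : L1 G A) : G → A := ((show ↥(lp (fun _ : G => A) 1) from x) : G → A)

theorem L1.ext {x y : L1 G A} (h : ∀ g, x.fn g = y.fn g) : x = y := by
  apply lp.ext (E := fun _ : G => A) (p := 1)
  funext g
  exact h g

@[simp] theorem L1.add_fn (x y : L1 G A) (g : G) : (x + y).fn g = x.fn g + y.fn g := rfl

@[simp] theorem L1.smul_fn [NormedAlgebra ℂ A] (z : ℂ) (x : L1 G A) (g : G) :
    (z • x).fn g = z • x.fn g := rfl

theorem L1.summable_norm (x : L1 G A) : Summable (fun g => ‖x.fn g‖) := by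
  have := (lp.memℓp (show ↥(lp (fun _ : G => A) 1) from x)).summable (by simp)
  simp only [ENNReal.toReal_one, Real.rpow_one] at this
  exact this

theorem L1.summable_fn [CompleteSpace A] (x : L1 G A) : Summable (fun g => x.fn g) :=
  (L1.summable_norm x).of_norm

theorem L1.norm_eq (x : L1 G A) : ‖x‖ = ∑' g, ‖x.fn g‖ := by
  have := lp.norm_eq_tsum_rpow (p := 1) (E := fun _ : G => A) (by simp)
    (show ↥(lp (fun _ : G => A) 1) from x)
  simp only [ENNReal.toReal_one, Real.rpow_one, ne_eq, one_ne_zero, not_false_eq_true,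
    div_self] at this
  exact this

/-- Constructor for elements of `ℓ¹(G; A)` from norm-summable functions. -/
def L1.mk (f : G → A) (hf : Summable (fun g => ‖f g‖)) : L1 G A :=
  (⟨f, memℓp_gen (by simpa using hf)⟩ : ↥(lp (fun _ : G => A) 1))

@[simp] theorem L1.mk_fn (f : G → A) (hf : Summable (fun g => ‖f g‖)) (g : G) :
    (L1.mk f hf).fn g = f g := rfl

end L1

variable {G : Type u} [Group G] {A : Type v} [NormedRing A] [NormedAlgebra ℂ A] [CompleteSpace A]

theorem mono_summable (h : G) (c : A) (x : L1 G A) :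
    Summable (fun g => ‖c * x.fn (h⁻¹ * g)‖) := by
  have hx' : Summable (fun g => ‖c‖ * ‖x.fn (h⁻¹ * g)‖) :=
    ((Equiv.mulLeft h⁻¹).summable_iff.mpr (L1.summable_norm x)).mul_left _
  exact Summable.of_nonneg_of_le (fun g => norm_nonneg _) (fun g => norm_mul_le _ _) hx'

/-- The monomial operator as a linear map. -/
noncomputable def monoLin (h : G) (c : A) : L1 G A →ₗ[ℂ] L1 G A where
  toFun x := L1.mk (fun g => c * x.fn (h⁻¹ * g)) (mono_summable h c x)
  map_add' x y := by
    apply L1.ext; intro g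
    simp [mul_add]
  map_smul' z x := by
    apply L1.ext; intro g
    simp

theorem monoLin_apply (h : G) (c : A) (x : L1 G A) (g : G) :
    (monoLin h c x).fn g = c * x.fn (h⁻¹ * g) := rfl

theorem monoLin_norm_le (h : G) (c : A) (x : L1 G A) : ‖monoLin h c x‖ ≤ ‖c‖ * ‖x‖ := by
  rw [L1.norm_eq, L1.norm_eq]
  have hx := L1.summable_norm x
  have hx' : Summable (fun g => ‖x.fn (h⁻¹ * g)‖) :=
    (Equiv.mulLeft h⁻¹).summable_iff.mpr hx
  calc ∑' g, ‖(monoLin h c x).fn g‖
      ≤ ∑' g, ‖c‖ * ‖x.fn (h⁻¹ * g)‖ :=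
        Summable.tsum_le_tsum (fun g => norm_mul_le _ _) (mono_summable h c x) (hx'.mul_left _)
    _ = ‖c‖ * ∑' g, ‖x.fn (h⁻¹ * g)‖ := tsum_mul_left
    _ = ‖c‖ * ∑' g, ‖x.fn g‖ :=
        congrArg (fun t => ‖c‖ * t) ((Equiv.mulLeft h⁻¹).tsum_eq (fun g => ‖x.fn g‖))

/-- The algebra of bounded operators on `ℓ¹(G; A)`. -/
abbrev Op (G : Type u) (A : Type v) [NormedRing A] [NormedAlgebra ℂ A] : Type (max u v) :=
  L1 G A →L[ℂ] L1 G A

/-- The monomial operator `x ↦ (g ↦ c * x (h⁻¹ * g))` on `ℓ¹(G; A)`, as a bounded operator. -/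
noncomputable def mono (h : G) (c : A) : Op G A :=
  (monoLin h c).mkContinuous ‖c‖ (monoLin_norm_le h c)

theorem mono_apply (h : G) (c : A) (x : L1 G A) (g : G) :
    (mono h c x).fn g = c * x.fn (h⁻¹ * g) := rfl

theorem mono_norm_le (h : G) (c : A) : ‖mono h c‖ ≤ ‖c‖ :=
  LinearMap.mkContinuous_norm_le _ (norm_nonneg _) _

theorem mono_mul (h k : G) (c d : A) : mono h c * mono k d = mono (h * k) (c * d) := by
  apply ContinuousLinearMap.ext; intro x
  apply L1.ext; intro g
  simp [mono_apply, mul_assoc]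

theorem mono_add (h : G) (c d : A) : mono h (c + d) = mono h c + mono h d := by
  apply ContinuousLinearMap.ext; intro x
  apply L1.ext; intro g
  simp [mono_apply, add_mul]

theorem mono_smul (h : G) (z : ℂ) (c : A) : mono h (z • c) = z • mono h c := by
  apply ContinuousLinearMap.ext; intro x
  apply L1.ext; intro g
  simp [mono_apply]

theorem mono_neg (h : G) (c : A) : mono h (-c) = -mono h c := by
  have h1 : mono h (-c) + mono h c = 0 := by
    rw [← mono_add, neg_add_cancel]
    apply ContinuousLinearMap.ext; intro x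
    apply L1.ext; intro g
    simp [mono_apply]
    rfl
  exact eq_neg_of_add_eq_zero_left h1

/-- `c ↦ mono h c` as a linear map. -/
noncomputable def monoLinA (h : G) : A →ₗ[ℂ] Op G A where
  toFun := fun c => mono h c
  map_add' := mono_add h
  map_smul' := mono_smul h

theorem monoLinA_bound (h : G) (c : A) : ‖monoLinA h c‖ ≤ 1 * ‖c‖ := by
  rw [one_mul]
  exact mono_norm_le h c

/-- `c ↦ mono h c` as a continuous linear map. -/
noncomputable def monoCLM (h : G) : A →L[ℂ] Op G A :=
  ⟨monoLinA (A := A) h,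
    AddMonoidHomClass.continuous_of_bound (monoLinA (A := A) h) 1 (monoLinA_bound (A := A) h)⟩

theorem monoCLM_apply (h : G) (c : A) : monoCLM h c = mono h c := rfl

end Vale.Agent.Lib.P184
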