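import Mathlib
import Vale.Agent.Lib.P184.Mono

/-!
# The trace functionals on operators on `ℓ¹(G; A)` and deformation invariance
-/

namespace Vale.Agent.Lib.P184

open scoped ENNReal

universe u v

set_option linter.unusedSectionVars false
set_option linter.unusedVariables false

variable {G : Type u} [Group G] {A : Type v} [NormedRing A] [NormedAlgebra ℂ A] [CompleteSpace A]

theorem delta_summable (G : Type u) [Group G] (A : Type v) [NormedRing A] :
    Summable (fun g : G => ‖(Set.indicator {(1 : G)} (fun _ => (1 : A)) g)‖) := by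
  apply summable_of_ne_finset_zero (s := {1})
  intro g hg
  have : g ∉ ({1} : Set G) := by simpa using hg
  simp [Set.indicator_of_notMem this]

/-- The element `δ₁ ⊗ 1` of `ℓ¹(G; A)`. -/
noncomputable def delta (G : Type u) [Group G] (A : Type v) [NormedRing A] : L1 G A :=
  L1.mk (Set.indicator {(1 : G)} (fun _ => (1 : A))) (delta_summable G A)

theorem delta_apply_one : (delta G A).fn 1 = 1 := by
  simp [delta]

theorem delta_apply_ne {g : G} (hg : g ≠ 1) : (delta G A).fn g = 0 := by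
  simp [delta, hg]

theorem L1.summable_ind (C : Set G) (tr : A →L[ℂ] ℂ) (x : L1 G A) :
    Summable (fun g => C.indicator (fun g => tr (x.fn g)) g) :=
  (tr.summable (L1.summable_fn x)).indicator C

theorem L1.ind_norm_le (C : Set G) (tr : A →L[ℂ] ℂ) (x : L1 G A) (g : G) :
    ‖C.indicator (fun g => tr (x.fn g)) g‖ ≤ ‖tr‖ * ‖x.fn g‖ := by
  by_cases hg : g ∈ C
  · simp only [Set.indicator_of_mem hg]
    exact tr.le_opNorm _
  · simp only [Set.indicator_of_notMem hg, norm_zero]
    positivity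

/-- The functional `x ↦ ∑_{g ∈ C} tr (x g)` on `ℓ¹(G; A)`, as a linear map. -/
noncomputable def psiLin (C : Set G) (tr : A →L[ℂ] ℂ) : L1 G A →ₗ[ℂ] ℂ where
  toFun x := ∑' g, C.indicator (fun g => tr (x.fn g)) g
  map_add' x y := by
    have h : (fun g => C.indicator (fun g => tr ((x + y).fn g)) g)
        = fun g => C.indicator (fun g => tr (x.fn g)) g
            + C.indicator (fun g => tr (y.fn g)) g := by
      funext g
      by_cases hg : g ∈ C <;> simp [hg]
    rw [h, Summable.tsum_add (L1.summable_ind C tr x) (L1.summable_ind C tr y)]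
  map_smul' z x := by
    have h : (fun g => C.indicator (fun g => tr ((z • x).fn g)) g)
        = fun g => z * C.indicator (fun g => tr (x.fn g)) g := by
      funext g
      by_cases hg : g ∈ C <;> simp [hg]
    rw [h, tsum_mul_left]
    simp

theorem psiLin_bound (C : Set G) (tr : A →L[ℂ] ℂ) (x : L1 G A) :
    ‖psiLin C tr x‖ ≤ ‖tr‖ * ‖x‖ := by
  have hs : Summable (fun g => ‖tr‖ * ‖x.fn g‖) := (L1.summable_norm x).mul_left _
  have hn : Summable (fun g => ‖C.indicator (fun g => tr (x.fn g)) g‖) :=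
    Summable.of_nonneg_of_le (fun g => norm_nonneg _) (L1.ind_norm_le C tr x) hs
  calc ‖psiLin C tr x‖ ≤ ∑' g, ‖C.indicator (fun g => tr (x.fn g)) g‖ :=
        norm_tsum_le_tsum_norm hn
    _ ≤ ∑' g, ‖tr‖ * ‖x.fn g‖ := Summable.tsum_le_tsum (L1.ind_norm_le C tr x) hn hs
    _ = ‖tr‖ * ∑' g, ‖x.fn g‖ := tsum_mul_left
    _ = ‖tr‖ * ‖x‖ := by rw [L1.norm_eq]

/-- The functional `x ↦ ∑_{g ∈ C} tr (x g)` on `ℓ¹(G; A)`, as a continuous linear map. -/
noncomputable def psi (C : Set G) (tr : A →L[ℂ] ℂ) : L1 G A →L[ℂ] ℂ :=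
  ⟨psiLin C tr, AddMonoidHomClass.continuous_of_bound (psiLin C tr) ‖tr‖ (psiLin_bound C tr)⟩

theorem psi_apply (C : Set G) (tr : A →L[ℂ] ℂ) (x : L1 G A) :
    psi C tr x = ∑' g, C.indicator (fun g => tr (x.fn g)) g := rfl

/-- The trace functional `T ↦ ∑_{g ∈ C} tr ((T δ) g)` on bounded operators on `ℓ¹(G; A)`. -/
noncomputable def tau (C : Set G) (tr : A →L[ℂ] ℂ) : Op G A →L[ℂ] ℂ :=
  (psi C tr).comp (ContinuousLinearMap.apply ℂ (L1 G A) (delta G A))

theorem tau_apply (C : Set G) (tr : A →L[ℂ] ℂ) (T : Op G A) :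
    tau C tr T = psi C tr (T (delta G A)) := rfl

theorem tau_mono (C : Set G) (tr : A →L[ℂ] ℂ) (h : G) (c : A) :
    tau C tr (mono h c) = C.indicator (fun _ => tr c) h := by
  rw [tau_apply, psi_apply]
  rw [tsum_eq_single h]
  · by_cases hh : h ∈ C
    · simp [hh, mono_apply, delta_apply_one]
    · simp [hh]
  · intro g hg
    have : (mono h c (delta G A)).fn g = 0 := by
      rw [mono_apply, delta_apply_ne, mul_zero]
      intro h1
      apply hg
      rw [inv_mul_eq_one] at h1
      exact h1.symm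
    by_cases hgC : g ∈ C
    · simp [hgC, this]
    · simp [hgC]

section Series

variable {I : Type*} {J : Type*}

theorem ser_summable_norm (γ : I → G) (c : I → A) (hc : Summable (fun i => ‖c i‖)) :
    Summable (fun i => ‖mono (γ i) (c i)‖) := by
  refine Summable.of_nonneg_of_le (fun i => ?_) (fun i => mono_norm_le _ _) hc
  exact norm_nonneg (mono (γ i) (c i))

theorem ser_summable (γ : I → G) (c : I → A) (hc : Summable (fun i => ‖c i‖)) :
    Summable (fun i => mono (γ i) (c i)) :=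
  Summable.of_norm (ser_summable_norm γ c hc)

theorem tau_ser (C : Set G) (tr : A →L[ℂ] ℂ) (γ : I → G) (c : I → A)
    (hc : Summable (fun i => ‖c i‖)) :
    tau C tr (∑' i, mono (γ i) (c i)) = ∑' i, C.indicator (fun _ => tr (c i)) (γ i) := by
  rw [ContinuousLinearMap.map_tsum _ (ser_summable γ c hc)]
  simp only [tau_mono]

theorem ser_mul (γ : I → G) (c : I → A) (hc : Summable (fun i => ‖c i‖))
    (γ' : J → G) (c' : J → A) (hc' : Summable (fun j => ‖c' j‖)) :
    (∑' i, mono (γ i) (c i)) * (∑' j, mono (γ' j) (c' j))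
      = ∑' p : I × J, mono (γ p.1 * γ' p.2) (c p.1 * c' p.2) := by
  rw [tsum_mul_tsum_of_summable_norm (ser_summable_norm γ c hc) (ser_summable_norm γ' c' hc')]
  simp only [mono_mul]

theorem summable_norm_prod (c : I → A) (hc : Summable (fun i => ‖c i‖))
    (c' : J → A) (hc' : Summable (fun j => ‖c' j‖)) :
    Summable (fun p : I × J => ‖c p.1 * c' p.2‖) :=
  Summable.of_nonneg_of_le (fun p => norm_nonneg _) (fun p => norm_mul_le _ _)
    (Summable.mul_of_nonneg hc hc' (fun i => norm_nonneg _) (fun j => norm_nonneg _))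

theorem tau_ser_mul_comm (C : Set G) (hC : ∀ a b : G, a * b ∈ C ↔ b * a ∈ C)
    (tr : A →L[ℂ] ℂ) (htr : ∀ c d : A, tr (c * d) = tr (d * c))
    (γ : I → G) (c : I → A) (hc : Summable (fun i => ‖c i‖))
    (γ' : J → G) (c' : J → A) (hc' : Summable (fun j => ‖c' j‖)) :
    tau C tr ((∑' i, mono (γ i) (c i)) * (∑' j, mono (γ' j) (c' j)))
      = tau C tr ((∑' j, mono (γ' j) (c' j)) * (∑' i, mono (γ i) (c i))) := by
  rw [ser_mul γ c hc γ' c' hc', ser_mul γ' c' hc' γ c hc]
  rw [tau_ser C tr (fun p : I × J => γ p.1 * γ' p.2) (fun p : I × J => c p.1 * c' p.2)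
    (summable_norm_prod c hc c' hc')]
  rw [tau_ser C tr (fun p : J × I => γ' p.1 * γ p.2) (fun p : J × I => c' p.1 * c p.2)
    (summable_norm_prod c' hc' c hc)]
  rw [← (Equiv.prodComm I J).tsum_eq]
  apply tsum_congr
  intro p
  simp only [Equiv.prodComm_apply, Prod.fst_swap, Prod.snd_swap]
  by_cases hp : γ p.1 * γ' p.2 ∈ C
  · have hp' : γ' p.2 * γ p.1 ∈ C := (hC _ _).mp hp
    simp [hp, hp', htr]
  · have hp' : γ' p.2 * γ p.1 ∉ C := fun h => hp ((hC _ _).mpr h)
    simp [hp, hp']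

end Series

/-- Operators representable as norm-summable series of monomials. -/
def Rep (x : Op G A) : Prop :=
  ∃ (I : Type u) (γ : I → G) (c : I → A), Summable (fun i => ‖c i‖) ∧ x = ∑' i, mono (γ i) (c i)

theorem Rep.mul {x y : Op G A} (hx : Rep x) (hy : Rep y) : Rep (x * y) := by
  obtain ⟨I, γ, c, hc, rfl⟩ := hx
  obtain ⟨J, γ', c', hc', rfl⟩ := hy
  exact ⟨I × J, fun p => γ p.1 * γ' p.2, fun p => c p.1 * c' p.2, summable_norm_prod c hc c' hc',
    ser_mul γ c hc γ' c' hc'⟩

theorem Rep.sub {x y : Op G A} (hx : Rep x) (hy : Rep y) : Rep (x - y) := by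
  obtain ⟨I, γ, c, hc, rfl⟩ := hx
  obtain ⟨J, γ', c', hc', rfl⟩ := hy
  refine ⟨I ⊕ J, Sum.elim γ γ', Sum.elim c (fun j => -c' j), ?_, ?_⟩
  · have h1 : HasSum ((fun s : I ⊕ J => ‖Sum.elim c (fun j => -c' j) s‖) ∘ Sum.inl)
        (∑' i, ‖c i‖) := by
      simpa [Function.comp_def] using hc.hasSum
    have h2 : HasSum ((fun s : I ⊕ J => ‖Sum.elim c (fun j => -c' j) s‖) ∘ Sum.inr)
        (∑' j, ‖c' j‖) := by
      simpa [Function.comp_def] using hc'.hasSum
    exact (h1.sum h2).summable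
  · have h1 : HasSum ((fun s : I ⊕ J => mono (Sum.elim γ γ' s) (Sum.elim c (fun j => -c' j) s))
        ∘ Sum.inl) (∑' i, mono (γ i) (c i)) := by
      simpa [Function.comp_def] using (ser_summable γ c hc).hasSum
    have h2 : HasSum ((fun s : I ⊕ J => mono (Sum.elim γ γ' s) (Sum.elim c (fun j => -c' j) s))
        ∘ Sum.inr) (-∑' j, mono (γ' j) (c' j)) := by
      have := (ser_summable γ' c' hc').hasSum.neg
      simpa [Function.comp_def, mono_neg] using this
    rw [sub_eq_add_neg]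
    exact (h1.sum h2).tsum_eq.symm

theorem Rep.tau_comm (C : Set G) (hC : ∀ a b : G, a * b ∈ C ↔ b * a ∈ C)
    (tr : A →L[ℂ] ℂ) (htr : ∀ c d : A, tr (c * d) = tr (d * c))
    {x y : Op G A} (hx : Rep x) (hy : Rep y) :
    tau C tr (x * y) = tau C tr (y * x) := by
  obtain ⟨I, γ, c, hc, rfl⟩ := hx
  obtain ⟨J, γ', c', hc', rfl⟩ := hy
  exact tau_ser_mul_comm C hC tr htr γ c hc γ' c' hc'

/-- Along a norm-continuous path of representable idempotents the trace is constant. -/
theorem tau_const_of_path (C : Set G) (hC : ∀ a b : G, a * b ∈ C ↔ b * a ∈ C)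
    (tr : A →L[ℂ] ℂ) (htr : ∀ c d : A, tr (c * d) = tr (d * c))
    (T : ℝ → Op G A) (hT : Continuous T) (hidem : ∀ t, T t * T t = T t)
    (hrep : ∀ t, Rep (T t)) (s t : ℝ) : tau C tr (T s) = tau C tr (T t) := by
  have hloc : IsLocallyConstant (fun t => tau C tr (T t)) := by
    rw [IsLocallyConstant.iff_eventually_eq]
    intro t0
    have h1 : ∀ᶠ t in nhds t0, T t ∈ Metric.ball (T t0) 1 :=
      (hT.tendsto t0).eventually (Metric.ball_mem_nhds _ one_pos)
    filter_upwards [h1] with t ht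
    rw [Metric.mem_ball, dist_eq_norm] at ht
    exact (trace_eq_of_idem_close (tau C tr : Op G A →+ ℂ) ‖tau C tr‖
      (tau C tr).opNorm_nonneg (fun x => (tau C tr).le_opNorm x) Rep (fun x y hx hy => hx.mul hy)
      (fun x y hx hy => hx.sub hy) (fun x y hx hy => Rep.tau_comm C hC tr htr hx hy)
      (hidem t0) (hidem t) (hrep t0) (hrep t) ht).symm
  exact hloc.apply_eq_of_preconnectedSpace s t

end Vale.Agent.Lib.P184
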