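import Mathlib
import Vale.Agent.Lib.P184.Trace

/-!
# Deformation invariance of conjugacy-class traces of `ℓ¹`-idempotents

If `a t : G → A` is a family of convolution idempotents in `ℓ¹(G; A)`, dominated by a summable
function and pointwise continuous in the real parameter `t`, then for every conjugation invariant
set `C` the number `∑_{g ∈ C} tr (a t g)` does not depend on `t`.
-/

namespace Vale.Agent.Lib.P184

universe u v

set_option linter.unusedSectionVars false
set_option linter.unusedVariables false

variable {G : Type u} [Group G] {A : Type v} [NormedRing A] [NormedAlgebra ℂ A] [CompleteSpace A]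

/-- The bijection `(g, h) ↦ (g * h, g)` of `G × G`. -/
def sigmaEquiv (G : Type u) [Group G] : G × G ≃ G × G where
  toFun p := (p.1 * p.2, p.1)
  invFun p := (p.2, p.2⁻¹ * p.1)
  left_inv p := by simp
  right_inv p := by simp

theorem ser_idem (a : G → A) (hsum : Summable (fun g => ‖a g‖))
    (hconv : ∀ g, HasSum (fun h => a h * a (h⁻¹ * g)) (a g)) :
    (∑' g, mono g (a g)) * (∑' g, mono g (a g)) = ∑' g, mono g (a g) := by
  rw [ser_mul (fun g => g) a hsum (fun g => g) a hsum]
  set F : G × G → Op G A := fun p => mono p.1 (a p.2 * a (p.2⁻¹ * p.1)) with hF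
  have h1 : (fun p : G × G => mono (p.1 * p.2) (a p.1 * a p.2))
      = fun p => F (sigmaEquiv G p) := by
    funext p; simp [hF, sigmaEquiv]
  rw [h1, (sigmaEquiv G).tsum_eq F]
  have hFs : Summable F := by
    rw [← (sigmaEquiv G).summable_iff]
    have : (F ∘ (sigmaEquiv G)) = fun p : G × G => mono (p.1 * p.2) (a p.1 * a p.2) := by
      funext p; simp [hF, sigmaEquiv]
    rw [this]
    exact ser_summable (fun p : G × G => p.1 * p.2) (fun p : G × G => a p.1 * a p.2)
      (summable_norm_prod a hsum a hsum)
  rw [hFs.tsum_prod]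
  apply tsum_congr
  intro k
  have := (monoCLM k).hasSum (hconv k)
  exact this.tsum_eq

theorem ser_continuous (a : ℝ → G → A) (bound : G → ℝ) (hb : Summable bound)
    (hle : ∀ t g, ‖a t g‖ ≤ bound g) (hcont : ∀ g, Continuous (fun t => a t g)) :
    Continuous (fun t => ∑' g, mono g (a t g)) := by
  refine continuous_tsum (fun g => ?_) hb (fun g t => (mono_norm_le _ _).trans (hle t g))
  exact (monoCLM g).continuous.comp (hcont g)

/-- Deformation invariance of the class traces of a continuous family of `ℓ¹`-idempotents. -/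
theorem deform (C : Set G) (hC : ∀ a b : G, a * b ∈ C ↔ b * a ∈ C)
    (tr : A →L[ℂ] ℂ) (htr : ∀ c d : A, tr (c * d) = tr (d * c))
    (a : ℝ → G → A) (bound : G → ℝ) (hb : Summable bound)
    (hle : ∀ t g, ‖a t g‖ ≤ bound g) (hcont : ∀ g, Continuous (fun t => a t g))
    (hconv : ∀ t g, HasSum (fun h => a t h * a t (h⁻¹ * g)) (a t g)) (s t : ℝ) :
    ∑' g, C.indicator (fun g => tr (a s g)) g = ∑' g, C.indicator (fun g => tr (a t g)) g := by
  have hsum : ∀ t, Summable (fun g => ‖a t g‖) := fun t =>
    Summable.of_nonneg_of_le (fun g => norm_nonneg _) (hle t) hb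
  have key := tau_const_of_path C hC tr htr (fun t => ∑' g, mono g (a t g))
    (ser_continuous a bound hb hle hcont) (fun t => ser_idem (a t) (hsum t) (hconv t))
    (fun t => ⟨G, fun g => g, a t, hsum t, rfl⟩) s t
  have e : ∀ t, tau C tr (∑' g, mono g (a t g)) = ∑' g, C.indicator (fun g => tr (a t g)) g := by
    intro t
    rw [tau_ser C tr (fun g : G => g) (a t) (hsum t)]
    apply tsum_congr
    intro g
    rfl
  rw [← e s, ← e t]
  exact key

end Vale.Agent.Lib.P184
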