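import Mathlib

/-!
# Free groups are residually finite

For every nontrivial element `x` of a free group there is a homomorphism to a finite symmetric
group `Perm (Fin n)` which does not kill `x`.  The proof lets the generators act on a finite set
`W` of group elements (the suffix products of a word for `x`) by extending the partially defined
left translations to permutations of `W`.
-/

namespace Vale.Agent.Lib.P184

universe u

variable {S : Type u}

open Classical in
/-- Left translation by a generator, as a bijection between the parts of a finite set `W` of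
elements of the free group on which it, respectively its inverse, stays inside `W`. -/
noncomputable def transEquiv (W : Finset (FreeGroup S)) (s : S) :
    {w : ↥W // FreeGroup.of s * (w : FreeGroup S) ∈ W} ≃
      {w : ↥W // (FreeGroup.of s)⁻¹ * (w : FreeGroup S) ∈ W} where
  toFun w := ⟨⟨FreeGroup.of s * (w.1 : FreeGroup S), w.2⟩, by simp⟩
  invFun w := ⟨⟨(FreeGroup.of s)⁻¹ * (w.1 : FreeGroup S), w.2⟩, by simp⟩
  left_inv w := by ext; simp
  right_inv w := by ext; simp

open Classical in
/-- A permutation of `W` extending left translation by a generator where that is defined. -/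
noncomputable def transPerm (W : Finset (FreeGroup S)) (s : S) : Equiv.Perm ↥W :=
  (transEquiv W s).extendSubtype

theorem transPerm_apply (W : Finset (FreeGroup S)) (s : S) (w : ↥W)
    (h : FreeGroup.of s * (w : FreeGroup S) ∈ W) :
    transPerm W s w = ⟨FreeGroup.of s * (w : FreeGroup S), h⟩ := by
  classical
  unfold transPerm
  rw [Equiv.extendSubtype_apply_of_mem (transEquiv W s) w h]
  rfl

theorem transPerm_inv_apply (W : Finset (FreeGroup S)) (s : S) (w : ↥W)
    (h : (FreeGroup.of s)⁻¹ * (w : FreeGroup S) ∈ W) :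
    (transPerm W s)⁻¹ w = ⟨(FreeGroup.of s)⁻¹ * (w : FreeGroup S), h⟩ := by
  rw [Equiv.Perm.inv_eq_iff_eq]
  have h2 : FreeGroup.of s * (((⟨(FreeGroup.of s)⁻¹ * (w : FreeGroup S), h⟩ : ↥W) : FreeGroup S))
      ∈ W := by
    simp
  rw [transPerm_apply W s _ h2]
  ext
  simp

theorem lift_transPerm (W : Finset (FreeGroup S)) :
    ∀ (L : List (S × Bool)), (∀ k, FreeGroup.mk (L.drop k) ∈ W) →
      ∀ (h1 : (1 : FreeGroup S) ∈ W) (h2 : FreeGroup.mk L ∈ W),
        FreeGroup.lift (transPerm W) (FreeGroup.mk L) ⟨1, h1⟩ = ⟨FreeGroup.mk L, h2⟩ := by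
  intro L
  induction L with
  | nil =>
    intro _ h1 h2
    have : (FreeGroup.mk [] : FreeGroup S) = 1 := rfl
    simp [this]
  | cons l L ih =>
    intro hL h1 h2
    have hL' : ∀ k, FreeGroup.mk (L.drop k) ∈ W := fun k => by simpa using hL (k + 1)
    have h3 : FreeGroup.mk L ∈ W := by simpa using hL 1
    have e1 : (FreeGroup.mk (l :: L) : FreeGroup S) = FreeGroup.mk [l] * FreeGroup.mk L := rfl
    have key := ih hL' h1 h3
    obtain ⟨s, b⟩ := l
    cases b with
    | true =>
      have e2 : (FreeGroup.mk [(s, true)] : FreeGroup S) = FreeGroup.of s := rfl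
      have h4 : FreeGroup.of s * (((⟨FreeGroup.mk L, h3⟩ : ↥W)) : FreeGroup S) ∈ W := by
        rw [← e2]; exact h2
      rw [Subtype.ext_iff]
      simp only [e1, map_mul, Equiv.Perm.coe_mul, Function.comp_apply, key, e2,
        FreeGroup.lift_apply_of]
      rw [transPerm_apply W s _ h4]
    | false =>
      have e2 : (FreeGroup.mk [(s, false)] : FreeGroup S) = (FreeGroup.of s)⁻¹ := rfl
      have h4 : (FreeGroup.of s)⁻¹ * (((⟨FreeGroup.mk L, h3⟩ : ↥W)) : FreeGroup S) ∈ W := by
        rw [← e2]; exact h2
      rw [Subtype.ext_iff]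
      simp only [e1, map_mul, Equiv.Perm.coe_mul, Function.comp_apply, key, e2, map_inv,
        FreeGroup.lift_apply_of]
      rw [transPerm_inv_apply W s _ h4]

/-- Free groups are residually finite: a nontrivial element survives in some finite symmetric
group. -/
theorem free_sep (x : FreeGroup S) (hx : x ≠ 1) :
    ∃ (n : ℕ) (ψ : FreeGroup S →* Equiv.Perm (Fin n)), ψ x ≠ 1 := by
  classical
  obtain ⟨L, rfl⟩ := Quot.exists_rep x
  change FreeGroup.mk L ≠ 1 at hx
  set W : Finset (FreeGroup S) :=
    Finset.image (fun k => FreeGroup.mk (L.drop k)) (Finset.range (L.length + 1)) with hW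
  have hmem : ∀ k, FreeGroup.mk (L.drop k) ∈ W := by
    intro k
    rw [hW, Finset.mem_image]
    by_cases hk : k ≤ L.length
    · exact ⟨k, Finset.mem_range.mpr (Nat.lt_succ_of_le hk), rfl⟩
    · refine ⟨L.length, Finset.mem_range.mpr (Nat.lt_succ_self _), ?_⟩
      have h1 : L.drop k = [] := List.drop_eq_nil_of_le (le_of_not_ge hk)
      rw [h1, List.drop_length]
  have h1 : (1 : FreeGroup S) ∈ W := by
    have := hmem L.length
    rw [List.drop_length] at this
    exact this
  have h2 : FreeGroup.mk L ∈ W := by simpa using hmem 0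
  have key := lift_transPerm W L hmem h1 h2
  have hne : FreeGroup.lift (transPerm W) (FreeGroup.mk L) ≠ 1 := by
    intro h
    rw [h] at key
    have : (1 : FreeGroup S) = FreeGroup.mk L := congrArg Subtype.val key
    exact hx this.symm
  refine ⟨Fintype.card ↥W,
    ((Fintype.equivFin ↥W).permCongrHom.toMonoidHom).comp (FreeGroup.lift (transPerm W)), ?_⟩
  intro h
  apply hne
  have h3 : (Fintype.equivFin ↥W).permCongrHom (FreeGroup.lift (transPerm W) (FreeGroup.mk L))
      = 1 := h
  exact (MulEquiv.map_eq_one_iff _).mp h3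

end Vale.Agent.Lib.P184
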