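import Mathlib

/-!
# Every permutation matrix is joined to the identity by a path of unitary matrices
-/

namespace Vale.Agent.Lib.P184

/-- Permutation matrices as unitary matrices. -/
noncomputable def permU (n : ℕ) : Equiv.Perm (Fin n) →* Matrix.unitaryGroup (Fin n) ℂ where
  toFun σ := ⟨Matrix.permMatrixHom σ, by
    rw [Matrix.mem_unitaryGroup_iff]
    simp only [Matrix.permMatrixHom_apply, Matrix.star_eq_conjTranspose,
      Matrix.conjTranspose_permMatrix, inv_inv]
    rw [← Matrix.permMatrix_mul, mul_inv_cancel, Matrix.permMatrix_one]⟩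
  map_one' := Subtype.ext (map_one _)
  map_mul' σ τ := Subtype.ext (map_mul _ σ τ)

theorem permU_val (n : ℕ) (σ : Equiv.Perm (Fin n)) :
    ((permU n σ : Matrix.unitaryGroup (Fin n) ℂ) : Matrix (Fin n) (Fin n) ℂ)
      = Equiv.Perm.permMatrix ℂ σ⁻¹ := rfl

theorem circle_identities (z : ℂ) (hz : (starRingEnd ℂ) z * z = 1) :
    (starRingEnd ℂ) ((1 + z) / 2) * ((1 + z) / 2) + (starRingEnd ℂ) ((1 - z) / 2) * ((1 - z) / 2) = 1
    ∧ (starRingEnd ℂ) ((1 + z) / 2) * ((1 - z) / 2)
        + (starRingEnd ℂ) ((1 - z) / 2) * ((1 + z) / 2) = 0 := by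
  have h2 : (starRingEnd ℂ) (2 : ℂ) = 2 := Complex.conj_ofNat 2
  constructor
  · simp only [map_div₀, map_add, map_sub, map_one, h2]
    linear_combination (1 / 2 : ℂ) * hz
  · simp only [map_div₀, map_add, map_sub, map_one, h2]
    linear_combination (-1 / 2 : ℂ) * hz

theorem involution_unitary {n : ℕ} (P : Matrix (Fin n) (Fin n) ℂ) (hP2 : P * P = 1)
    (hPs : star P = P) (c d : ℂ) (h1 : (starRingEnd ℂ) c * c + (starRingEnd ℂ) d * d = 1)
    (h2 : (starRingEnd ℂ) c * d + (starRingEnd ℂ) d * c = 0) :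
    c • (1 : Matrix (Fin n) (Fin n) ℂ) + d • P ∈ Matrix.unitaryGroup (Fin n) ℂ := by
  rw [Matrix.mem_unitaryGroup_iff']
  have hs : star (c • (1 : Matrix (Fin n) (Fin n) ℂ) + d • P)
      = (starRingEnd ℂ) c • (1 : Matrix (Fin n) (Fin n) ℂ) + (starRingEnd ℂ) d • P := by
    rw [star_add, star_smul, star_smul, star_one, hPs]
    rfl
  rw [hs]
  have e : ((starRingEnd ℂ) c • (1 : Matrix (Fin n) (Fin n) ℂ) + (starRingEnd ℂ) d • P)
        * (c • (1 : Matrix (Fin n) (Fin n) ℂ) + d • P)
      = ((starRingEnd ℂ) c * c + (starRingEnd ℂ) d * d) • (1 : Matrix (Fin n) (Fin n) ℂ)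
        + ((starRingEnd ℂ) c * d + (starRingEnd ℂ) d * c) • P := by
    simp only [add_mul, mul_add, Matrix.smul_mul, Matrix.mul_smul, smul_smul, mul_one, one_mul,
      hP2]
    module
  rw [e, h1, h2]
  simp

/-- The path `t ↦ ((1 + z)/2) • 1 + ((1 - z)/2) • P`, `z = exp (i π t)`, from `1` to `P`. -/
theorem swap_path (n : ℕ) (x y : Fin n) :
    ∃ U : ℝ → Matrix.unitaryGroup (Fin n) ℂ,
      (∀ i j, Continuous fun t => (U t : Matrix (Fin n) (Fin n) ℂ) i j) ∧ U 0 = 1
        ∧ U 1 = permU n (Equiv.swap x y) := by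
  set P : Matrix (Fin n) (Fin n) ℂ := (permU n (Equiv.swap x y) : Matrix (Fin n) (Fin n) ℂ)
    with hP
  have hP2 : P * P = 1 := by
    have : permU n (Equiv.swap x y) * permU n (Equiv.swap x y) = 1 := by
      rw [← map_mul, Equiv.swap_mul_self, map_one]
    exact congrArg Subtype.val this
  have hPs : star P = P := by
    rw [hP, permU_val, Matrix.star_eq_conjTranspose, Matrix.conjTranspose_permMatrix]
    simp
  set z : ℝ → ℂ := fun t => Complex.exp (((t * Real.pi : ℝ) : ℂ) * Complex.I) with hz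
  have hzz : ∀ t, (starRingEnd ℂ) (z t) * z t = 1 := by
    intro t
    rw [hz]
    simp only
    rw [← Complex.exp_conj, ← Complex.exp_add]
    simp
  have hzc : Continuous z := by
    rw [hz]
    refine Complex.continuous_exp.comp ?_
    refine Continuous.mul ?_ continuous_const
    exact Complex.continuous_ofReal.comp (continuous_id.mul continuous_const)
  refine ⟨fun t => ⟨((1 + z t) / 2) • (1 : Matrix (Fin n) (Fin n) ℂ) + ((1 - z t) / 2) • P,
    involution_unitary P hP2 hPs _ _ (circle_identities (z t) (hzz t)).1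
      (circle_identities (z t) (hzz t)).2⟩, ?_, ?_, ?_⟩
  · intro i j
    simp only [Matrix.add_apply, Matrix.smul_apply, smul_eq_mul]
    exact (((continuous_const.add hzc).div_const 2).mul continuous_const).add
      (((continuous_const.sub hzc).div_const 2).mul continuous_const)
  · apply Subtype.ext
    have h0 : z 0 = 1 := by simp [hz]
    simp [h0]
  · apply Subtype.ext
    have h1 : z 1 = -1 := by
      simp only [hz, one_mul]
      exact Complex.exp_pi_mul_I
    simp only [h1]
    rw [hP]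
    norm_num

/-- Every permutation matrix is joined to the identity by an entrywise continuous path of
unitary matrices. -/
theorem perm_path (n : ℕ) (σ : Equiv.Perm (Fin n)) :
    ∃ U : ℝ → Matrix.unitaryGroup (Fin n) ℂ,
      (∀ i j, Continuous fun t => (U t : Matrix (Fin n) (Fin n) ℂ) i j) ∧ U 0 = 1
        ∧ U 1 = permU n σ := by
  induction σ using Equiv.Perm.swap_induction_on with
  | one => exact ⟨fun _ => 1, fun i j => continuous_const, rfl, (map_one _).symm⟩
  | swap_mul f x y _ ih =>
    obtain ⟨U, hUc, hU0, hU1⟩ := ih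
    obtain ⟨V, hVc, hV0, hV1⟩ := swap_path n x y
    refine ⟨fun t => V t * U t, ?_, ?_, ?_⟩
    · intro i j
      have : (fun t => ((V t * U t : Matrix.unitaryGroup (Fin n) ℂ) : Matrix (Fin n) (Fin n) ℂ) i j)
          = fun t => ∑ k, (V t : Matrix (Fin n) (Fin n) ℂ) i k * (U t : Matrix (Fin n) (Fin n) ℂ) k j := by
        funext t
        rw [Matrix.UnitaryGroup.mul_apply, Matrix.mul_apply]
      rw [this]
      exact continuous_finsetSum _ fun k _ => (hVc i k).mul (hUc k j)
    · simp [hU0, hV0]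
    · simp [hU1, hV1]

end Vale.Agent.Lib.P184
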