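import Mathlib
import Vale.Agent.Lib.P184.Deform

/-!
# Deformation invariance for matrix-valued `ℓ¹`-idempotents, stated entrywise
-/

namespace Vale.Agent.Lib.P184

open scoped Matrix.Norms.Operator

universe u

set_option linter.unusedSectionVars false

variable {G : Type u} [Group G] {N : Type} [Fintype N] [DecidableEq N]

/-- The matrix trace as a continuous linear functional. -/
noncomputable def trCLM (N : Type) [Fintype N] [DecidableEq N] : Matrix N N ℂ →L[ℂ] ℂ :=
  ⟨Matrix.traceLinearMap N ℂ ℂ, LinearMap.continuous_of_finiteDimensional _⟩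

theorem trCLM_apply (M : Matrix N N ℂ) : trCLM N M = M.trace := rfl

theorem mat_decomp (M : Matrix N N ℂ) : M = ∑ i, ∑ j, M i j • Matrix.single i j (1 : ℂ) := by
  conv_lhs => rw [Matrix.matrix_eq_sum_single M]
  simp [Matrix.smul_single]

theorem mat_norm_le (M : Matrix N N ℂ) :
    ‖M‖ ≤ ∑ i, ∑ j, ‖M i j‖ * ‖Matrix.single i j (1 : ℂ)‖ := by
  conv_lhs => rw [mat_decomp M]
  refine (norm_sum_le _ _).trans (Finset.sum_le_sum fun i _ => ?_)
  refine (norm_sum_le _ _).trans (Finset.sum_le_sum fun j _ => ?_)
  rw [norm_smul]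

/-- Deformation invariance of class traces for a family of matrix-valued convolution idempotents
on a group, with all hypotheses stated entrywise. -/
theorem mat_deform (C : Set G) (hC : ∀ a b : G, a * b ∈ C ↔ b * a ∈ C)
    (a : ℝ → G → Matrix N N ℂ) (bound : G → ℝ) (hb : Summable bound)
    (hle : ∀ t g i j, ‖a t g i j‖ ≤ bound g)
    (hcont : ∀ g i j, Continuous (fun t => a t g i j))
    (hconv : ∀ t g i j, HasSum (fun h => (a t h * a t (h⁻¹ * g)) i j) (a t g i j)) (s t : ℝ) :
    ∑' g, C.indicator (fun g => (a s g).trace) g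
      = ∑' g, C.indicator (fun g => (a t g).trace) g := by
  set K : ℝ := ∑ i : N, ∑ j : N, ‖Matrix.single i j (1 : ℂ)‖ with hK
  have key := deform C hC (trCLM N) (fun c d => Matrix.trace_mul_comm c d) a
    (fun g => bound g * K) (hb.mul_right K) ?_ ?_ ?_ s t
  · exact key
  · intro t g
    refine (mat_norm_le _).trans ?_
    rw [hK, Finset.mul_sum]
    refine Finset.sum_le_sum fun i _ => ?_
    rw [Finset.mul_sum]
    exact Finset.sum_le_sum fun j _ =>
      mul_le_mul_of_nonneg_right (hle t g i j) (norm_nonneg _)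
  · intro g
    have : (fun t => a t g) = fun t => ∑ i, ∑ j, a t g i j • Matrix.single i j (1 : ℂ) := by
      funext t; exact mat_decomp _
    rw [this]
    exact continuous_finsetSum _ fun i _ => continuous_finsetSum _ fun j _ =>
      (hcont g i j).smul continuous_const
  · intro t g
    have h1 : HasSum
        (fun h => ∑ i, ∑ j, (a t h * a t (h⁻¹ * g)) i j • Matrix.single i j (1 : ℂ))
        (∑ i, ∑ j, a t g i j • Matrix.single i j (1 : ℂ)) :=
      hasSum_sum fun i _ => hasSum_sum fun j _ => (hconv t g i j).smul_const _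
    rw [← mat_decomp] at h1
    have h2 : (fun h => a t h * a t (h⁻¹ * g))
        = fun h => ∑ i, ∑ j, (a t h * a t (h⁻¹ * g)) i j • Matrix.single i j (1 : ℂ) :=
      funext fun h => mat_decomp _
    rw [h2]
    exact h1

end Vale.Agent.Lib.P184
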