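import Mathlib
import Vale.Agent.Lib.P184.MatDeform

/-!
# Twisting an `ℓ¹`-idempotent matrix by a path of finite-dimensional unitary representations
-/

namespace Vale.Agent.Lib.P184

universe u

set_option linter.unusedSectionVars false

variable {G : Type u} [Group G]

/-- The convolution identity for an idempotent matrix over `ℓ¹(G)`, as a `HasSum` statement. -/
theorem conv_hasSum (q : ℕ) (e : Fin q → Fin q → G → ℂ)
    (hsum : ∀ i j, Summable (fun g => ‖e i j g‖))
    (hidem : ∀ i j g, ∑ k, ∑' h, e i k h * e k j (h⁻¹ * g) = e i j g) (i j : Fin q) (g : G) :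
    HasSum (fun h => ∑ k, e i k h * e k j (h⁻¹ * g)) (e i j g) := by
  rw [← hidem i j g]
  refine hasSum_sum fun k _ => Summable.hasSum ?_
  refine Summable.of_norm_bounded ((hsum i k).mul_right (∑' x, ‖e k j x‖)) fun h => ?_
  rw [norm_mul]
  exact mul_le_mul_of_nonneg_left ((hsum k j).le_tsum (h⁻¹ * g) fun _ _ => norm_nonneg _)
    (norm_nonneg _)

theorem conjSet_comm (g₀ : G) (a b : G) :
    a * b ∈ {g : G | IsConj g₀ g} ↔ b * a ∈ {g : G | IsConj g₀ g} := by
  have h : ∀ x y : G, IsConj (x * y) (y * x) := fun x y =>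
    isConj_iff.mpr ⟨x⁻¹, by group⟩
  constructor
  · intro hab; exact IsConj.trans hab (h a b)
  · intro hba; exact IsConj.trans hba (h b a)

theorem bound_summable (q : ℕ) (e : Fin q → Fin q → G → ℂ)
    (hsum : ∀ i j, Summable (fun g => ‖e i j g‖)) :
    Summable (fun g => ∑ i, ∑ j, ‖e i j g‖) :=
  summable_sum fun i _ => summable_sum fun j _ => hsum i j

theorem entry_le_bound (q : ℕ) (e : Fin q → Fin q → G → ℂ) (i j : Fin q) (g : G) :
    ‖e i j g‖ ≤ ∑ i, ∑ j, ‖e i j g‖ := by
  have h1 : ‖e i j g‖ ≤ ∑ j, ‖e i j g‖ :=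
    Finset.single_le_sum (f := fun j => ‖e i j g‖) (fun _ _ => norm_nonneg _) (Finset.mem_univ j)
  have h2 : ∑ j, ‖e i j g‖ ≤ ∑ i, ∑ j, ‖e i j g‖ :=
    Finset.single_le_sum (f := fun i => ∑ j, ‖e i j g‖)
      (fun _ _ => Finset.sum_nonneg fun _ _ => norm_nonneg _) (Finset.mem_univ i)
  exact h1.trans h2

theorem diag_summable (q : ℕ) (e : Fin q → Fin q → G → ℂ)
    (hsum : ∀ i j, Summable (fun g => ‖e i j g‖)) :
    Summable (fun g => ∑ i, e i i g) :=
  summable_sum fun i _ => (hsum i i).of_norm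

/-- If `X * c = X * d` with `c ≠ d` then the class sum `X` vanishes (as a `HasSum`). -/
theorem hasSum_zero_of_mul_eq (q : ℕ) (e : Fin q → Fin q → G → ℂ)
    (hsum : ∀ i j, Summable (fun g => ‖e i j g‖)) (g₀ : G) {c d : ℂ} (hcd : c ≠ d)
    (h : (∑' g, Set.indicator {g : G | IsConj g₀ g} (fun g => ∑ i, e i i g) g) * c
      = (∑' g, Set.indicator {g : G | IsConj g₀ g} (fun g => ∑ i, e i i g) g) * d) :
    HasSum (fun g : {g : G // IsConj g₀ g} => ∑ i, e i i g.1) 0 := by
  have hX : (∑' g, Set.indicator {g : G | IsConj g₀ g} (fun g => ∑ i, e i i g) g) = 0 := by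
    have h2 : (∑' g, Set.indicator {g : G | IsConj g₀ g} (fun g => ∑ i, e i i g) g) * (c - d)
        = 0 := by
      rw [mul_sub, h, sub_self]
    rcases mul_eq_zero.mp h2 with h3 | h3
    · exact h3
    · exact absurd (sub_eq_zero.mp h3) hcd
  have hs : Summable (fun g : {g : G // IsConj g₀ g} => ∑ i, e i i g.1) :=
    (diag_summable q e hsum).subtype {g : G | IsConj g₀ g}
  have ht : ∑' g : {g : G // IsConj g₀ g}, ∑ i, e i i g.1 = 0 := by
    rw [← hX]
    exact tsum_subtype {g : G | IsConj g₀ g} (fun g => ∑ i, e i i g)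
  rw [← ht]
  exact hs.hasSum

/-- Twisting by a continuous family of unitary representations: the class sum of the diagonal of
an idempotent matrix over `ℓ¹(G)`, multiplied by the character value at the class, is constant
along the family. -/
theorem twisted_trace (q : ℕ) (e : Fin q → Fin q → G → ℂ)
    (hsum : ∀ i j, Summable (fun g => ‖e i j g‖))
    (hidem : ∀ i j g, ∑ k, ∑' h, e i k h * e k j (h⁻¹ * g) = e i j g)
    (n : ℕ) (π : ℝ → G →* Matrix.unitaryGroup (Fin n) ℂ)
    (hcont : ∀ g i j, Continuous (fun t => (π t g : Matrix (Fin n) (Fin n) ℂ) i j))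
    (g₀ : G) (s t : ℝ) :
    (∑' g, Set.indicator {g : G | IsConj g₀ g} (fun g => ∑ i, e i i g) g)
        * Matrix.trace (π s g₀ : Matrix (Fin n) (Fin n) ℂ)
      = (∑' g, Set.indicator {g : G | IsConj g₀ g} (fun g => ∑ i, e i i g) g)
        * Matrix.trace (π t g₀ : Matrix (Fin n) (Fin n) ℂ) := by
  set a : ℝ → G → Matrix (Fin q × Fin n) (Fin q × Fin n) ℂ := fun t g =>
    Matrix.kroneckerMap (fun x y => x * y) (Matrix.of fun i j => e i j g)
      (π t g : Matrix (Fin n) (Fin n) ℂ) with ha
  have key := mat_deform {g : G | IsConj g₀ g} (conjSet_comm g₀) a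
    (fun g => ∑ i, ∑ j, ‖e i j g‖) (bound_summable q e hsum) ?_ ?_ ?_ s t
  · -- evaluate the traces
    have htr : ∀ t, (∑' g, Set.indicator {g : G | IsConj g₀ g} (fun g => (a t g).trace) g)
        = (∑' g, Set.indicator {g : G | IsConj g₀ g} (fun g => ∑ i, e i i g) g)
          * Matrix.trace (π t g₀ : Matrix (Fin n) (Fin n) ℂ) := by
      intro t
      rw [← tsum_mul_right]
      apply tsum_congr
      intro g
      by_cases hg : g ∈ {g : G | IsConj g₀ g}
      · rw [Set.indicator_of_mem hg, Set.indicator_of_mem hg]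
        have h1 : (a t g).trace = (∑ i, e i i g) * Matrix.trace (π t g : Matrix (Fin n) (Fin n) ℂ) := by
          rw [ha]
          simp only
          rw [Matrix.trace_kronecker]
          rfl
        rw [h1]
        congr 1
        obtain ⟨c, hc⟩ := isConj_iff.mp hg
        rw [← hc]
        have h2 : ((π t (c * g₀ * c⁻¹) : Matrix.unitaryGroup (Fin n) ℂ) : Matrix (Fin n) (Fin n) ℂ)
            = (π t c : Matrix (Fin n) (Fin n) ℂ) * (π t g₀ : Matrix (Fin n) (Fin n) ℂ)
              * (π t c⁻¹ : Matrix (Fin n) (Fin n) ℂ) := by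
          rw [map_mul, map_mul]; rfl
        have h3 : (π t c⁻¹ : Matrix (Fin n) (Fin n) ℂ) * (π t c : Matrix (Fin n) (Fin n) ℂ) = 1 := by
          have : π t c⁻¹ * π t c = 1 := by rw [← map_mul, inv_mul_cancel, map_one]
          exact congrArg Subtype.val this
        rw [h2, Matrix.trace_mul_comm, ← mul_assoc, h3, one_mul]
      · rw [Set.indicator_of_notMem hg, Set.indicator_of_notMem hg, zero_mul]
    rw [htr s, htr t] at key
    exact key
  · -- domination
    intro t g i j
    rw [ha]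
    simp only [Matrix.kroneckerMap_apply, Matrix.of_apply, norm_mul]
    have h1 : ‖(π t g : Matrix (Fin n) (Fin n) ℂ) i.2 j.2‖ ≤ 1 :=
      entry_norm_bound_of_unitary (π t g).2 i.2 j.2
    calc ‖e i.1 j.1 g‖ * ‖(π t g : Matrix (Fin n) (Fin n) ℂ) i.2 j.2‖
        ≤ ‖e i.1 j.1 g‖ * 1 := mul_le_mul_of_nonneg_left h1 (norm_nonneg _)
      _ = ‖e i.1 j.1 g‖ := mul_one _
      _ ≤ ∑ i, ∑ j, ‖e i j g‖ := entry_le_bound q e i.1 j.1 g
  · -- continuity
    intro g i j
    rw [ha]
    simp only [Matrix.kroneckerMap_apply, Matrix.of_apply]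
    exact continuous_const.mul (hcont g i.2 j.2)
  · -- convolution identity
    intro t g i j
    have h1 : ∀ h, a t h * a t (h⁻¹ * g)
        = Matrix.kroneckerMap (fun x y => x * y)
            ((Matrix.of fun i j => e i j h) * (Matrix.of fun i j => e i j (h⁻¹ * g)))
            (π t g : Matrix (Fin n) (Fin n) ℂ) := by
      intro h
      rw [ha]
      simp only
      rw [← Matrix.mul_kronecker_mul]
      congr 1
      have : π t h * π t (h⁻¹ * g) = π t g := by rw [← map_mul, mul_inv_cancel_left]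
      exact congrArg Subtype.val this
    simp only [h1]
    simp only [Matrix.kroneckerMap_apply, Matrix.mul_apply, Matrix.of_apply, ha]
    exact (conv_hasSum q e hsum hidem i.1 j.1 g).mul_right _

end Vale.Agent.Lib.P184
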