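import Mathlib
import Vale.Agent.Lib.P184.Twist
import Vale.Agent.Lib.P184.FreeSep
import Vale.Agent.Lib.P184.PermPath

/-!
# Vanishing of class traces at classes surviving in a free quotient
-/

namespace Vale.Agent.Lib.P184

universe u v

/-- Every permutation representation of a free group on `Fin n` is joined to the trivial
representation by an entrywise continuous path of unitary representations. -/
theorem free_path (S : Type v) (n : ℕ) (ψ : FreeGroup S →* Equiv.Perm (Fin n)) :
    ∃ π : ℝ → FreeGroup S →* Matrix.unitaryGroup (Fin n) ℂ,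
      (∀ x i j, Continuous fun t => (π t x : Matrix (Fin n) (Fin n) ℂ) i j)
        ∧ (∀ x, π 0 x = 1) ∧ (∀ x, π 1 x = permU n (ψ x)) := by
  choose U hUc hU0 hU1 using fun s : S => perm_path n (ψ (FreeGroup.of s))
  refine ⟨fun t => FreeGroup.lift (fun s => U s t), ?_, ?_, ?_⟩
  · intro x
    induction x using FreeGroup.induction_on with
    | C1 => intro i j; simp only [map_one]; exact continuous_const
    | of s => intro i j; simp only [FreeGroup.lift_apply_of]; exact hUc s i j
    | inv_of s ih =>
      intro i j
      simp only [map_inv, FreeGroup.lift_apply_of, Matrix.UnitaryGroup.inv_apply,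
        Matrix.star_apply]
      simp only [FreeGroup.lift_apply_of] at ih
      exact Complex.continuous_conj.comp (ih j i)
    | mul x y hx hy =>
      intro i j
      simp only [map_mul, Matrix.UnitaryGroup.mul_apply, Matrix.mul_apply]
      exact continuous_finsetSum _ fun k _ => (hx i k).mul (hy k j)
  · intro x
    have h : FreeGroup.lift (fun s => U s 0) = (1 : FreeGroup S →* Matrix.unitaryGroup (Fin n) ℂ) :=
      FreeGroup.ext_hom _ _ (fun s => by simp [hU0])
    change FreeGroup.lift (fun s => U s 0) x = 1
    rw [h]; rfl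
  · intro x
    have h : FreeGroup.lift (fun s => U s 1) = (permU n).comp ψ :=
      FreeGroup.ext_hom _ _ (fun s => by simp [hU1])
    change FreeGroup.lift (fun s => U s 1) x = permU n (ψ x)
    rw [h]; rfl

theorem trace_permU_ne (n : ℕ) (σ : Equiv.Perm (Fin n)) (hσ : σ ≠ 1) :
    Matrix.trace ((1 : Matrix.unitaryGroup (Fin n) ℂ) : Matrix (Fin n) (Fin n) ℂ)
      ≠ Matrix.trace ((permU n σ : Matrix.unitaryGroup (Fin n) ℂ) : Matrix (Fin n) (Fin n) ℂ) := by
  rw [permU_val, Matrix.trace_permutation, Matrix.UnitaryGroup.one_apply, Matrix.trace_one]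
  intro h
  have h2 : Fintype.card (Fin n) = (Function.fixedPoints ⇑σ⁻¹).ncard := by exact_mod_cast h
  have h3 : Function.fixedPoints ⇑σ⁻¹ ≠ Set.univ := by
    intro h4
    apply hσ
    have : σ⁻¹ = 1 := by
      ext i
      have : i ∈ Function.fixedPoints ⇑σ⁻¹ := by rw [h4]; trivial
      simpa using congrArg Fin.val this
    exact inv_eq_one.mp this
  have h5 := Set.ncard_lt_card h3
  rw [Nat.card_eq_fintype_card] at h5
  omega

variable {G : Type u} [Group G]

/-- Vanishing of the class trace at every class which survives under some homomorphism to a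
free group. -/
theorem free_vanish {S : Type v} (f : G →* FreeGroup S) (q : ℕ) (e : Fin q → Fin q → G → ℂ)
    (hsum : ∀ i j, Summable (fun g => ‖e i j g‖))
    (hidem : ∀ i j g, ∑ k, ∑' h, e i k h * e k j (h⁻¹ * g) = e i j g)
    (g₀ : G) (hg : f g₀ ≠ 1) :
    HasSum (fun g : {g : G // IsConj g₀ g} => ∑ i, e i i g.1) 0 := by
  obtain ⟨n, ψ, hψ⟩ := free_sep (f g₀) hg
  obtain ⟨π', hc, h0, h1⟩ := free_path S n ψ
  have key := twisted_trace q e hsum hidem n (fun t => (π' t).comp f)
    (fun g i j => hc (f g) i j) g₀ 0 1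
  refine hasSum_zero_of_mul_eq q e hsum g₀ ?_ key
  simp only [MonoidHom.comp_apply, h0, h1]
  exact trace_permU_ne n (ψ (f g₀)) hψ

end Vale.Agent.Lib.P184
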