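import Mathlib
import Vale.Agent.Lib.P184.Twist

/-!
# Monomial (induced) representations and classes detected on a finite-index subgroup

A group `G` acting on a finite set `X` together with a real additive cocycle `c : G → X → ℝ`
gives a continuous path of monomial unitary representations `t ↦ monoMat c t`.  Applied to the
action on the cosets of a finite-index subgroup `G₀` and the cocycle coming from a homomorphism
`G₀ → ℝ`, this is the path of induced representations `Ind (exp (i t φ))`.
-/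

namespace Vale.Agent.Lib.P184

universe u v

set_option linter.unusedSectionVars false

variable {G : Type u} [Group G]

section Cocycle

variable {X : Type v} [Fintype X] [DecidableEq X] [MulAction G X]

/-- The monomial matrix of `g` for the cocycle `c` at the parameter `t`. -/
noncomputable def monoMat (c : G → X → ℝ) (t : ℝ) (g : G) : Matrix X X ℂ :=
  Matrix.of fun p x => if p = g • x then Complex.exp (((t * c g x : ℝ) : ℂ) * Complex.I) else 0

theorem monoMat_apply (c : G → X → ℝ) (t : ℝ) (g : G) (p x : X) :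
    monoMat c t g p x
      = if p = g • x then Complex.exp (((t * c g x : ℝ) : ℂ) * Complex.I) else 0 := rfl

theorem cocycle_one (c : G → X → ℝ) (hc : ∀ g g' x, c (g * g') x = c g (g' • x) + c g' x)
    (x : X) : c 1 x = 0 := by
  have := hc 1 1 x
  rw [mul_one, one_smul] at this
  linarith

theorem cocycle_inv (c : G → X → ℝ) (hc : ∀ g g' x, c (g * g') x = c g (g' • x) + c g' x)
    (g : G) (x : X) : c g⁻¹ (g • x) = -c g x := by
  have := hc g⁻¹ g x
  rw [inv_mul_cancel, cocycle_one c hc] at this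
  linarith

theorem monoMat_mul (c : G → X → ℝ) (hc : ∀ g g' x, c (g * g') x = c g (g' • x) + c g' x)
    (t : ℝ) (g g' : G) : monoMat c t (g * g') = monoMat c t g * monoMat c t g' := by
  ext p x
  rw [Matrix.mul_apply, Finset.sum_eq_single (g' • x)]
  · rw [monoMat_apply, monoMat_apply, monoMat_apply, if_pos rfl, mul_smul]
    by_cases h : p = g • g' • x
    · rw [if_pos h, if_pos h, ← Complex.exp_add, hc]
      congr 1
      push_cast
      ring
    · rw [if_neg h, if_neg h, zero_mul]
  · intro r _ hr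
    rw [monoMat_apply c t g' r x, if_neg hr, mul_zero]
  · intro h
    exact absurd (Finset.mem_univ _) h

theorem monoMat_one (c : G → X → ℝ) (hc : ∀ g g' x, c (g * g') x = c g (g' • x) + c g' x)
    (t : ℝ) : monoMat c t (1 : G) = 1 := by
  ext p x
  rw [monoMat_apply, one_smul, cocycle_one c hc, Matrix.one_apply]
  by_cases h : p = x
  · rw [if_pos h, if_pos h]
    simp
  · rw [if_neg h, if_neg h]

theorem monoMat_star (c : G → X → ℝ) (hc : ∀ g g' x, c (g * g') x = c g (g' • x) + c g' x)
    (t : ℝ) (g : G) : star (monoMat c t g) = monoMat c t g⁻¹ := by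
  ext x p
  rw [Matrix.star_apply, monoMat_apply, monoMat_apply]
  by_cases h : p = g • x
  · have h' : x = g⁻¹ • p := by rw [h, inv_smul_smul]
    rw [if_pos h, if_pos h', h, cocycle_inv c hc]
    rw [Complex.star_def, ← Complex.exp_conj]
    congr 1
    simp
  · have h' : ¬ x = g⁻¹ • p := by
      intro hx
      exact h (by rw [hx, smul_inv_smul])
    rw [if_neg h, if_neg h', star_zero]

theorem monoMat_mul_star (c : G → X → ℝ)
    (hc : ∀ g g' x, c (g * g') x = c g (g' • x) + c g' x) (t : ℝ) (g : G) :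
    monoMat c t g * star (monoMat c t g) = 1 := by
  rw [monoMat_star c hc, ← monoMat_mul c hc, mul_inv_cancel, monoMat_one c hc]

theorem monoMat_trace (c : G → X → ℝ) (t : ℝ) (g : G) :
    (monoMat c t g).trace
      = ∑ x, if x = g • x then Complex.exp (((t * c g x : ℝ) : ℂ) * Complex.I) else 0 := rfl

/-- The path of monomial unitary representations, reindexed by `Fin n`. -/
noncomputable def monoRep (c : G → X → ℝ)
    (hc : ∀ g g' x, c (g * g') x = c g (g' • x) + c g' x) (n : ℕ) (ε : X ≃ Fin n) (t : ℝ) :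
    G →* Matrix.unitaryGroup (Fin n) ℂ where
  toFun g := ⟨(monoMat c t g).submatrix ε.symm ε.symm, by
    rw [Matrix.mem_unitaryGroup_iff, Matrix.star_eq_conjTranspose, Matrix.conjTranspose_submatrix,
      Matrix.submatrix_mul_equiv, ← Matrix.star_eq_conjTranspose, monoMat_mul_star c hc,
      Matrix.submatrix_one_equiv]⟩
  map_one' := by
    apply Subtype.ext
    show (monoMat c t (1 : G)).submatrix ε.symm ε.symm = 1
    rw [monoMat_one c hc, Matrix.submatrix_one_equiv]
  map_mul' g g' := by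
    apply Subtype.ext
    show (monoMat c t (g * g')).submatrix ε.symm ε.symm
      = (monoMat c t g).submatrix ε.symm ε.symm * (monoMat c t g').submatrix ε.symm ε.symm
    rw [Matrix.submatrix_mul_equiv, monoMat_mul c hc]

theorem monoRep_coe (c : G → X → ℝ)
    (hc : ∀ g g' x, c (g * g') x = c g (g' • x) + c g' x) (n : ℕ) (ε : X ≃ Fin n) (t : ℝ)
    (g : G) :
    (monoRep c hc n ε t g : Matrix (Fin n) (Fin n) ℂ)
      = (monoMat c t g).submatrix ε.symm ε.symm := rfl

theorem monoRep_trace (c : G → X → ℝ)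
    (hc : ∀ g g' x, c (g * g') x = c g (g' • x) + c g' x) (n : ℕ) (ε : X ≃ Fin n) (t : ℝ)
    (g : G) :
    Matrix.trace (monoRep c hc n ε t g : Matrix (Fin n) (Fin n) ℂ)
      = ∑ x, if x = g • x then Complex.exp (((t * c g x : ℝ) : ℂ) * Complex.I) else 0 := by
  rw [monoRep_coe, ← monoMat_trace]
  show ∑ i, (monoMat c t g) (ε.symm i) (ε.symm i) = ∑ x, (monoMat c t g) x x
  exact Equiv.sum_comp ε.symm (fun x => (monoMat c t g) x x)

/-- Vanishing of the class trace at a class detected by a cocycle over a finite `G`-set: if `g₀`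
fixes a point `x₁` and the cocycle is nonzero at `(g₀, x₁)`, the class sum at `g₀` vanishes. -/
theorem cocycle_vanish (q : ℕ) (e : Fin q → Fin q → G → ℂ)
    (hsum : ∀ i j, Summable (fun g => ‖e i j g‖))
    (hidem : ∀ i j g, ∑ k, ∑' h, e i k h * e k j (h⁻¹ * g) = e i j g)
    (c : G → X → ℝ) (hc : ∀ g g' x, c (g * g') x = c g (g' • x) + c g' x)
    (g₀ : G) (x₁ : X) (hx : g₀ • x₁ = x₁) (hne : c g₀ x₁ ≠ 0) :
    HasSum (fun g : {g : G // IsConj g₀ g} => ∑ i, e i i g.1) 0 := by
  have hcont : ∀ (g : G) (i j : Fin (Fintype.card X)), Continuous (fun t =>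
      (monoRep c hc (Fintype.card X) (Fintype.equivFin X) t g
        : Matrix (Fin (Fintype.card X)) (Fin (Fintype.card X)) ℂ) i j) := by
    intro g i j
    simp only [monoRep_coe, Matrix.submatrix_apply, monoMat_apply]
    by_cases h : (Fintype.equivFin X).symm i = g • (Fintype.equivFin X).symm j
    · simp only [if_pos h]
      refine Complex.continuous_exp.comp ?_
      refine Continuous.mul ?_ continuous_const
      exact Complex.continuous_ofReal.comp (continuous_id.mul continuous_const)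
    · simp only [if_neg h]
      exact continuous_const
  have key := twisted_trace q e hsum hidem (Fintype.card X)
    (monoRep c hc (Fintype.card X) (Fintype.equivFin X)) hcont g₀ 0 (Real.pi / c g₀ x₁)
  rw [monoRep_trace, monoRep_trace] at key
  refine hasSum_zero_of_mul_eq q e hsum g₀ ?_ key
  intro heq
  have hre := congrArg Complex.re heq
  rw [Complex.re_sum, Complex.re_sum] at hre
  have hterm : ∀ x : X,
      (if x = g₀ • x then Complex.exp ((((0 : ℝ) * c g₀ x : ℝ) : ℂ) * Complex.I) else 0).re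
        - (if x = g₀ • x then
            Complex.exp (((Real.pi / c g₀ x₁ * c g₀ x : ℝ) : ℂ) * Complex.I) else 0).re
      = if x = g₀ • x then 1 - Real.cos (Real.pi / c g₀ x₁ * c g₀ x) else 0 := by
    intro x
    by_cases h : x = g₀ • x
    · rw [if_pos h, if_pos h, if_pos h, Complex.exp_ofReal_mul_I_re, Complex.exp_ofReal_mul_I_re,
        zero_mul, Real.cos_zero]
    · rw [if_neg h, if_neg h, if_neg h, Complex.zero_re, sub_zero]
  have hzero : ∑ x : X, (if x = g₀ • x then 1 - Real.cos (Real.pi / c g₀ x₁ * c g₀ x) else 0)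
      = 0 := by
    rw [← Finset.sum_congr rfl fun x _ => hterm x, Finset.sum_sub_distrib, hre, sub_self]
  have hnonneg : ∀ x ∈ (Finset.univ : Finset X),
      0 ≤ (if x = g₀ • x then 1 - Real.cos (Real.pi / c g₀ x₁ * c g₀ x) else 0) := by
    intro x _
    by_cases h : x = g₀ • x
    · rw [if_pos h]
      linarith [Real.cos_le_one (Real.pi / c g₀ x₁ * c g₀ x)]
    · rw [if_neg h]
  have h1 := (Finset.sum_eq_zero_iff_of_nonneg hnonneg).mp hzero x₁ (Finset.mem_univ _)
  rw [if_pos hx.symm, div_mul_cancel₀ _ hne, Real.cos_pi] at h1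
  norm_num at h1

end Cocycle

section FiniteIndex

/-- The transition element `(out (g • x))⁻¹ * g * out x` of a coset `x` lies in the subgroup. -/
theorem transition_mem (G₀ : Subgroup G) (g : G) (x : G ⧸ G₀) :
    (Quotient.out (g • x))⁻¹ * g * Quotient.out x ∈ G₀ := by
  rw [mul_assoc, ← QuotientGroup.eq, QuotientGroup.out_eq']
  conv_lhs => rw [← QuotientGroup.out_eq' x]
  rfl

/-- Vanishing of the class trace at every class meeting a finite-index subgroup `G₀` in an element
on which some homomorphism `G₀ → ℝ` is nonzero. -/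
theorem virtual_vanish (q : ℕ) (e : Fin q → Fin q → G → ℂ)
    (hsum : ∀ i j, Summable (fun g => ‖e i j g‖))
    (hidem : ∀ i j g, ∑ k, ∑' h, e i k h * e k j (h⁻¹ * g) = e i j g)
    (G₀ : Subgroup G) [G₀.FiniteIndex] (φ : G₀ → ℝ) (hφ : ∀ x y, φ (x * y) = φ x + φ y)
    (g₀ : G₀) (hg : φ g₀ ≠ 0) :
    HasSum (fun g : {g : G // IsConj (g₀ : G) g} => ∑ i, e i i g.1) 0 := by
  classical
  have : Fintype (G ⧸ G₀) := Fintype.ofFinite _
  -- the cocycle of the induced representation
  have hc : ∀ (g g' : G) (x : G ⧸ G₀),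
      φ ⟨(Quotient.out ((g * g') • x))⁻¹ * (g * g') * Quotient.out x, transition_mem G₀ _ x⟩
        = φ ⟨(Quotient.out (g • g' • x))⁻¹ * g * Quotient.out (g' • x),
              transition_mem G₀ g (g' • x)⟩
          + φ ⟨(Quotient.out (g' • x))⁻¹ * g' * Quotient.out x, transition_mem G₀ g' x⟩ := by
    intro g g' x
    rw [← hφ]
    congr 1
    apply Subtype.ext
    show (Quotient.out ((g * g') • x))⁻¹ * (g * g') * Quotient.out x
      = (Quotient.out (g • g' • x))⁻¹ * g * Quotient.out (g' • x)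
        * ((Quotient.out (g' • x))⁻¹ * g' * Quotient.out x)
    rw [mul_smul]
    group
  -- the coset of the identity is fixed by `g₀`
  have hx : (g₀ : G) • ((1 : G) : G ⧸ G₀) = ((1 : G) : G ⧸ G₀) := by
    rw [MulAction.Quotient.smul_coe, smul_eq_mul, mul_one, QuotientGroup.eq, mul_one]
    exact G₀.inv_mem g₀.2
  -- its chosen representative lies in `G₀`
  have hr : Quotient.out (((1 : G) : G ⧸ G₀)) ∈ G₀ := by
    have h1 : ((Quotient.out (((1 : G) : G ⧸ G₀)) : G) : G ⧸ G₀) = ((1 : G) : G ⧸ G₀) :=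
      QuotientGroup.out_eq' _
    rw [QuotientGroup.eq, mul_one] at h1
    simpa using G₀.inv_mem h1
  refine cocycle_vanish (X := G ⧸ G₀) q e hsum hidem
    (fun g x => φ ⟨(Quotient.out (g • x))⁻¹ * g * Quotient.out x, transition_mem G₀ g x⟩)
    hc (g₀ : G) ((1 : G) : G ⧸ G₀) hx ?_
  -- the cocycle at the fixed coset equals `φ g₀`
  have hval : φ ⟨(Quotient.out ((g₀ : G) • ((1 : G) : G ⧸ G₀)))⁻¹ * (g₀ : G)
        * Quotient.out (((1 : G) : G ⧸ G₀)), transition_mem G₀ _ _⟩ = φ g₀ := by
    have h2 : (⟨(Quotient.out ((g₀ : G) • ((1 : G) : G ⧸ G₀)))⁻¹ * (g₀ : G)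
        * Quotient.out (((1 : G) : G ⧸ G₀)), transition_mem G₀ _ _⟩ : G₀)
        = (⟨Quotient.out (((1 : G) : G ⧸ G₀)), hr⟩ : G₀)⁻¹ * g₀
          * ⟨Quotient.out (((1 : G) : G ⧸ G₀)), hr⟩ := by
      apply Subtype.ext
      show (Quotient.out ((g₀ : G) • ((1 : G) : G ⧸ G₀)))⁻¹ * (g₀ : G)
          * Quotient.out (((1 : G) : G ⧸ G₀))
        = (Quotient.out (((1 : G) : G ⧸ G₀)))⁻¹ * (g₀ : G) * Quotient.out (((1 : G) : G ⧸ G₀))
      rw [hx]
    rw [h2, hφ, hφ]
    have h3 : φ (⟨Quotient.out (((1 : G) : G ⧸ G₀)), hr⟩ : G₀)⁻¹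
        = -φ ⟨Quotient.out (((1 : G) : G ⧸ G₀)), hr⟩ := by
      have h4 := hφ (⟨Quotient.out (((1 : G) : G ⧸ G₀)), hr⟩ : G₀)⁻¹
        ⟨Quotient.out (((1 : G) : G ⧸ G₀)), hr⟩
      have h5 := hφ (1 : G₀) 1
      rw [inv_mul_cancel] at h4
      rw [mul_one] at h5
      linarith
    rw [h3]
    ring
  show φ ⟨(Quotient.out ((g₀ : G) • ((1 : G) : G ⧸ G₀)))⁻¹ * (g₀ : G)
        * Quotient.out (((1 : G) : G ⧸ G₀)), transition_mem G₀ _ _⟩ ≠ 0
  rw [hval]
  exact hg

end FiniteIndex

end Vale.Agent.Lib.P184
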