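import Mathlib
import Vale.Agent.Lib.P184.Twist

/-!
# Vanishing of class traces at classes detected by a homomorphism to `ℝ`
-/

namespace Vale.Agent.Lib.P184

universe u

set_option linter.unusedSectionVars false

variable {G : Type u} [Group G]

theorem addHom_one (φ : G → ℝ) (hφ : ∀ x y, φ (x * y) = φ x + φ y) : φ 1 = 0 := by
  have := hφ 1 1
  rw [mul_one] at this
  linarith

theorem addHom_inv (φ : G → ℝ) (hφ : ∀ x y, φ (x * y) = φ x + φ y) (x : G) : φ x⁻¹ = -φ x := by
  have := hφ x x⁻¹
  rw [mul_inv_cancel, addHom_one φ hφ] at this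
  linarith

theorem addHom_conj (φ : G → ℝ) (hφ : ∀ x y, φ (x * y) = φ x + φ y) {g₀ g : G}
    (hg : IsConj g₀ g) : φ g = φ g₀ := by
  obtain ⟨c, hc⟩ := isConj_iff.mp hg
  rw [← hc, hφ, hφ, addHom_inv φ hφ]
  ring

/-- Twisting by the characters `g ↦ exp (i t φ g)`: the class sum of the diagonal, multiplied by
`exp (i t φ g₀)`, does not depend on `t`. -/
theorem realHom_trace (q : ℕ) (e : Fin q → Fin q → G → ℂ)
    (hsum : ∀ i j, Summable (fun g => ‖e i j g‖))
    (hidem : ∀ i j g, ∑ k, ∑' h, e i k h * e k j (h⁻¹ * g) = e i j g)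
    (φ : G → ℝ) (hφ : ∀ x y, φ (x * y) = φ x + φ y) (g₀ : G) (s t : ℝ) :
    (∑' g, Set.indicator {g : G | IsConj g₀ g} (fun g => ∑ i, e i i g) g)
        * Complex.exp (((s * φ g₀ : ℝ) : ℂ) * Complex.I)
      = (∑' g, Set.indicator {g : G | IsConj g₀ g} (fun g => ∑ i, e i i g) g)
        * Complex.exp (((t * φ g₀ : ℝ) : ℂ) * Complex.I) := by
  set a : ℝ → G → Matrix (Fin q) (Fin q) ℂ := fun t g =>
    Matrix.of fun i j => Complex.exp (((t * φ g : ℝ) : ℂ) * Complex.I) * e i j g with ha
  have key := mat_deform {g : G | IsConj g₀ g} (conjSet_comm g₀) a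
    (fun g => ∑ i, ∑ j, ‖e i j g‖) (bound_summable q e hsum) ?_ ?_ ?_ s t
  · have htr : ∀ t, (∑' g, Set.indicator {g : G | IsConj g₀ g} (fun g => (a t g).trace) g)
        = (∑' g, Set.indicator {g : G | IsConj g₀ g} (fun g => ∑ i, e i i g) g)
          * Complex.exp (((t * φ g₀ : ℝ) : ℂ) * Complex.I) := by
      intro t
      rw [← tsum_mul_right]
      apply tsum_congr
      intro g
      by_cases hg : g ∈ {g : G | IsConj g₀ g}
      · rw [Set.indicator_of_mem hg, Set.indicator_of_mem hg]
        have h1 : (a t g).trace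
            = (∑ i, e i i g) * Complex.exp (((t * φ g : ℝ) : ℂ) * Complex.I) := by
          rw [ha]
          simp only [Matrix.trace, Matrix.diag_apply, Matrix.of_apply]
          rw [Finset.sum_mul]
          exact Finset.sum_congr rfl fun i _ => mul_comm _ _
        rw [h1, addHom_conj φ hφ hg]
      · rw [Set.indicator_of_notMem hg, Set.indicator_of_notMem hg, zero_mul]
    rw [htr s, htr t] at key
    exact key
  · intro t g i j
    rw [ha]
    simp only [Matrix.of_apply, norm_mul, Complex.norm_exp_ofReal_mul_I, one_mul]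
    exact entry_le_bound q e i j g
  · intro g i j
    rw [ha]
    simp only [Matrix.of_apply]
    refine Continuous.mul ?_ continuous_const
    refine Complex.continuous_exp.comp ?_
    refine Continuous.mul ?_ continuous_const
    exact Complex.continuous_ofReal.comp (continuous_id.mul continuous_const)
  · intro t g i j
    have h1 : ∀ h, (a t h * a t (h⁻¹ * g)) i j
        = Complex.exp (((t * φ g : ℝ) : ℂ) * Complex.I) * ∑ k, e i k h * e k j (h⁻¹ * g) := by
      intro h
      rw [ha]
      simp only [Matrix.mul_apply, Matrix.of_apply]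
      rw [Finset.mul_sum]
      refine Finset.sum_congr rfl fun k _ => ?_
      have h2 : φ g = φ h + φ (h⁻¹ * g) := by
        rw [← hφ, mul_inv_cancel_left]
      have h3 : Complex.exp (((t * φ g : ℝ) : ℂ) * Complex.I)
          = Complex.exp (((t * φ h : ℝ) : ℂ) * Complex.I)
            * Complex.exp (((t * φ (h⁻¹ * g) : ℝ) : ℂ) * Complex.I) := by
        rw [← Complex.exp_add, h2]
        congr 1
        push_cast
        ring
      rw [h3]
      ring
    simp only [h1]
    have h4 : a t g i j = Complex.exp (((t * φ g : ℝ) : ℂ) * Complex.I) * e i j g := by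
      rw [ha]; rfl
    rw [h4]
    exact (conv_hasSum q e hsum hidem i j g).mul_left _

/-- Vanishing of the class trace at every class on which some homomorphism to `ℝ` is nonzero. -/
theorem realHom_vanish (q : ℕ) (e : Fin q → Fin q → G → ℂ)
    (hsum : ∀ i j, Summable (fun g => ‖e i j g‖))
    (hidem : ∀ i j g, ∑ k, ∑' h, e i k h * e k j (h⁻¹ * g) = e i j g)
    (φ : G → ℝ) (hφ : ∀ x y, φ (x * y) = φ x + φ y) (g₀ : G) (hg : φ g₀ ≠ 0) :
    HasSum (fun g : {g : G // IsConj g₀ g} => ∑ i, e i i g.1) 0 := by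
  have key := realHom_trace q e hsum hidem φ hφ g₀ 0 (Real.pi / φ g₀)
  have h0 : Complex.exp ((((0 : ℝ) * φ g₀ : ℝ) : ℂ) * Complex.I) = 1 := by simp
  have h1 : Complex.exp (((Real.pi / φ g₀ * φ g₀ : ℝ) : ℂ) * Complex.I) = -1 := by
    rw [div_mul_cancel₀ _ hg]
    exact Complex.exp_pi_mul_I
  rw [h0, h1] at key
  refine hasSum_zero_of_mul_eq q e hsum g₀ (c := 1) (d := -1) ?_ key
  norm_num

end Vale.Agent.Lib.P184
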